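import Crest.Agent.R175.P.Defs

/-! R175/Fin/Basic (owner helper17): parabolic subgroups, stabilisers of `P r`, van der Lek. -/

set_option autoImplicit false
set_option linter.unusedSectionVars false
set_option linter.unusedVariables false

open Finset Crest.GroupTheory

noncomputable section

namespace Crest.Agent.R175.P

variable {S : Type} [Fintype S] [DecidableEq S] {M : CoxeterMatrix S}

theorem fin_mono {X Y : Finset S} (h : X ⊆ Y) : AP M X ≤ AP M Y :=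
  Subgroup.closure_mono (Set.image_mono (Finset.coe_subset.2 h))

theorem fin_gen {X : Finset S} {s : S} (h : s ∈ X) : σ M s ∈ AP M X :=
  Subgroup.subset_closure ⟨s, h, rfl⟩

/-- the value at `t` is not changed by `A_X`, `t ∉ X` -/
theorem fin_v (Q : Mdl M) {X : Finset S} {a : ArtinGroup M} (ha : a ∈ AP M X) {t : S} (ht : t ∉ X) (x : Q.X) (n : ℤ) :
    Q.v (a • x) n t = Q.v x n t := by
  induction ha using Subgroup.closure_induction generalizing x with
  | mem a ha =>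
    obtain ⟨s, hs, rfl⟩ := ha
    exact Q.loc s t (fun h => ht (h ▸ hs)) x n
  | one => rw [one_smul]
  | mul a b _ _ ha hb => rw [mul_smul, ha, hb]
  | inv a _ ha => rw [← ha, smul_inv_smul]

theorem fin_fix (Q : Mdl M) {X : Finset S} {a : ArtinGroup M} (ha : a ∈ AP M X) {r : S} (hr : r ∉ X) :
    a • Q.P r = Q.P r := by
  refine (Subgroup.closure_le (MulAction.stabilizer (ArtinGroup M) (Q.P r))).2 ?_ ha
  rintro _ ⟨s, hs, rfl⟩
  exact Q.P_fix r s fun h => hr (h ▸ hs)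

/-- a path in `D` stays at the vertex or leaves it through a neighbour in `D` -/
theorem conn_exit {T : Finset S} {D : S × ArtinGroup M → Prop} {p q : S × ArtinGroup M} (h : Conn M T D p q) :
    (q.1 = p.1 ∧ q.2 * p.2⁻¹ ∈ AP M (T.erase p.1)) ∨
      ∃ p', D p' ∧ p'.1 ≠ p.1 ∧ p'.2 * p.2⁻¹ ∈ AP M (T.erase p.1) := by
  induction h with
  | refl => exact Or.inl ⟨rfl, by rw [mul_inv_cancel]; exact one_mem _⟩
  | @tail m q _ hs ih =>
    rcases ih with ⟨h1, h2⟩ | ih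
    · rcases hs.2.2 with h3 | ⟨h3, h4⟩
      · by_cases h5 : q.1 = p.1
        · exact Or.inl ⟨h5, h3 ▸ h2⟩
        · exact Or.inr ⟨q, hs.2.1, h5, h3 ▸ h2⟩
      · refine Or.inl ⟨h3 ▸ h1, ?_⟩
        have := mul_mem (h1 ▸ h4) h2
        rwa [mul_assoc, inv_mul_cancel_left] at this
    · exact Or.inr ih

theorem fin_adj (hPF : S_PF M) (s t : S) : 0 ≤ adj M s t := by
  rcases (hPF.1 s t).2.1 with h | h <;> linarith

theorem fin_fr_le_b (Q : Mdl M) (hPF : S_PF M) (T : Finset S) (x : Q.X) (m : ℤ) (u : S) : Q.fr x m u ≤ Q.b T x m u :=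
  le_add_of_nonneg_right (sum_nonneg fun t _ => mul_nonneg (fin_adj hPF _ _) (Q.v_nonneg _ _ _))

theorem fin_fr_P (Q : Mdl M) (r : S) (a : ArtinGroup M) {n : ℤ} (hn : n ≠ 0) (u : S) : Q.fr (a • Q.P r) n u = 0 := by
  rw [Q.fr_smul]
  by_contra h
  exact hn ((Q.P_fr r n u).1 h).1

theorem fin_out (Q : Mdl M) (T : Finset S) (r : S) {a : ArtinGroup M} (ha : a ∈ AP M T) {n : ℤ} (hn : 0 ≤ n) :
    Q.Out T n (a • Q.P r) := fun k hk u _ =>
  ⟨fin_fr_P Q r a (by omega) u, fun t ht _ => by rw [fin_v Q ha ht, Q.P_v]⟩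

/-- D1 -/
theorem stab_P (Q : Mdl M) (hPF : S_PF M) (hC : ∀ T, S_C Q T) {U : Finset S} {h : ArtinGroup M} (hh : h ∈ AP M U) (r : S) :
    h • Q.P r = Q.P r ↔ h ∈ AP M (U.erase r) := by
  refine ⟨fun hx => ?_, fun hx => fin_fix Q hx (notMem_erase r U)⟩
  by_cases hr : r ∈ U
  swap
  · rwa [erase_eq_of_notMem hr]
  have hpos : 0 < Q.fr (Q.P r) 0 r := lt_of_le_of_ne (Q.fr_nonneg _ _ _) ((Q.P_fr r 0 r).2 ⟨rfl, rfl⟩).symm
  let c : S → ℝ := fun u => if u = r then Q.fr (Q.P r) 0 r / 2 else 0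
  have hc0 : ∀ u, 0 ≤ c u := fun u => by
    simp only [c]
    split_ifs
    · positivity
    · exact le_rfl
  have hA : Q.Adm U (Q.P r) 0 c := fun u hu => by
    refine le_trans ?_ (fin_fr_le_b Q hPF U _ 0 u)
    have h1 : 0 ≤ ∑ w ∈ U, adj M u w * c w := sum_nonneg fun w _ => mul_nonneg (fin_adj hPF _ _) (hc0 w)
    have h2 : 2 * c u ≤ Q.fr (Q.P r) 0 u := by
      simp only [c]
      split_ifs with h
      · rw [h]; linarith
      · rw [mul_zero]; exact Q.fr_nonneg _ _ _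
    unfold Car
    linarith
  have hD : ∀ a ∈ AP M U, a • Q.P r = Q.P r → Q.D U (Q.P r) 0 c (r, a) := fun a ha hx =>
    ⟨⟨hr, ha, fun n _ => by rw [hx, Q.P_v]⟩, by rw [hx, Q.P_v]; simpa [c] using hpos⟩
  rcases conn_exit (hC U _ 0 c (fin_out Q U r (one_mem (AP M U)) le_rfl |> (one_smul (ArtinGroup M) (Q.P r) ▸ ·)) hA _ _
    (hD 1 (one_mem _) (one_smul _ _)) (hD h hh hx)) with h1 | ⟨p, h1, h2, -⟩
  · simpa using h1.2
  · have h3 := h1.2
    rw [show c p.1 = 0 from if_neg h2] at h3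
    exact absurd h3 (not_lt.2 (Q.v_nonneg _ _ _))

/-- van der Lek -/
def VdL (M : CoxeterMatrix S) : Prop := ∀ (X Y : Finset S) (h : ArtinGroup M), h ∈ AP M X → h ∈ AP M Y → h ∈ AP M (X ∩ Y)

theorem vdl (Q : Mdl M) (hPF : S_PF M) (hC : ∀ T, S_C Q T) : VdL M := by
  intro X
  induction X using Finset.strongInduction with
  | H X ih =>
    intro Y h hX hY
    by_cases hXY : X ⊆ Y
    · rwa [inter_eq_left.2 hXY]
    · obtain ⟨r, hr, hr'⟩ := not_subset.1 hXY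
      have h1 := (stab_P Q hPF hC hX r).1 (fin_fix Q hY hr')
      exact fin_mono (inter_subset_inter_right (erase_subset _ _)) (ih _ (erase_ssubset hr) Y h h1 hY)

/-- `g A_Y g⁻¹` -/
def cjA (g : ArtinGroup M) (Y : Finset S) : Subgroup (ArtinGroup M) := (AP M Y).comap (MulAut.conj g⁻¹).toMonoidHom

theorem mem_cjA {g h : ArtinGroup M} {Y : Finset S} : h ∈ cjA g Y ↔ g⁻¹ * h * g ∈ AP M Y := by
  simp [cjA]

/-- `H` is a parabolic subgroup of `A_U` -/
def Par (U : Finset S) (H : Subgroup (ArtinGroup M)) : Prop := ∃ a ∈ AP M U, ∃ Z ⊆ U, H = cjA a Z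

theorem sI_iff {T : Finset S} : S_I M T ↔ ∀ X ⊆ T, ∀ Y ⊆ T, ∀ g ∈ AP M T, Par X (AP M X ⊓ cjA g Y) := by
  refine forall₅_congr fun X _ Y _ g => forall_congr' fun _ => exists_congr fun a => and_congr_right fun _ =>
    exists_congr fun Z => and_congr_right fun _ => ?_
  rw [SetLike.ext_iff]
  simp only [Subgroup.mem_inf, mem_cjA]

/-- the special case `Y = T - r` -/
def S_I1 (M : CoxeterMatrix S) (T : Finset S) : Prop :=
  ∀ X ⊆ T, ∀ r ∈ T, ∀ g ∈ AP M T, Par X (AP M X ⊓ cjA g (T.erase r))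

theorem cjA_inf {a g a' : ArtinGroup M} {Z W Z' : Finset S} (h : AP M Z ⊓ cjA (a⁻¹ * g) W = cjA a' Z') :
    cjA a Z ⊓ cjA g W = cjA (a * a') Z' := by
  ext w
  have := SetLike.ext_iff.1 h (a⁻¹ * w * a)
  simp only [Subgroup.mem_inf, mem_cjA] at this ⊢
  rw [show (a⁻¹ * g)⁻¹ * (a⁻¹ * w * a) * (a⁻¹ * g) = g⁻¹ * w * g by group] at this
  rw [this, show (a * a')⁻¹ * w * (a * a') = a'⁻¹ * (a⁻¹ * w * a) * a' by group]

/-- induction on `#(T \ Y)`; `A_Y = A_(insert r Y) ⊓ A_(T - r)` -/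
theorem sI_of_sI1 (hv : VdL M) {T : Finset S} (h : S_I1 M T) : S_I M T := by
  have key : ∀ k : ℕ, ∀ Y ⊆ T, (T \ Y).card = k → ∀ X ⊆ T, ∀ g ∈ AP M T, Par X (AP M X ⊓ cjA g Y) := by
    intro k
    induction k with
    | zero =>
      intro Y hY hk X hX g hg
      have hTY : T ⊆ Y := sdiff_eq_empty_iff_subset.1 (card_eq_zero.1 hk)
      refine ⟨1, one_mem _, X, Subset.rfl, ?_⟩
      ext w
      simp only [Subgroup.mem_inf, mem_cjA, inv_one, one_mul, mul_one]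
      exact ⟨fun h => h.1, fun h => ⟨h, fin_mono hTY (mul_mem (mul_mem (inv_mem hg) (fin_mono hX h)) hg)⟩⟩
    | succ k ih =>
      intro Y hY hk X hX g hg
      obtain ⟨r, hr⟩ := card_pos.1 (by omega : 0 < (T \ Y).card)
      rw [mem_sdiff] at hr
      obtain ⟨a, ha, Z, hZ, e1⟩ := ih (insert r Y) (insert_subset hr.1 hY) (by
        rw [sdiff_insert, card_erase_of_mem (mem_sdiff.2 hr), hk]; rfl) X hX g hg
      obtain ⟨a', ha', Z', hZ', e2⟩ := h Z (hZ.trans hX) r hr.1 (a⁻¹ * g) (mul_mem (inv_mem (fin_mono hX ha)) hg)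
      refine ⟨a * a', mul_mem ha (fin_mono hZ ha'), Z', hZ'.trans hZ, ?_⟩
      rw [← cjA_inf e2, ← e1, inf_assoc]
      congr 1
      ext w
      simp only [Subgroup.mem_inf, mem_cjA]
      refine ⟨fun h => ⟨fin_mono (subset_insert _ _) h, fin_mono (subset_erase.2 ⟨hY, hr.2⟩) h⟩, fun h => ?_⟩
      refine fin_mono (fun u hu => ?_) (hv _ _ _ h.1 h.2)
      rw [mem_inter, mem_insert, mem_erase] at hu
      exact hu.1.resolve_left hu.2.1
  exact sI_iff.2 fun X hX Y hY g hg => key _ Y hY rfl X hX g hg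

end Crest.Agent.R175.P
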