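import Crest.Agent.R175.Fin.Thr

/-! R175/Fin/Desc (owner helper17): fixed descending edges in the hyperbolic case. -/

set_option autoImplicit false
set_option linter.unusedSectionVars false
set_option linter.unusedVariables false

open Finset Crest.GroupTheory

noncomputable section

namespace Crest.Agent.R175.P

variable {S : Type} [Fintype S] [DecidableEq S] {M : CoxeterMatrix S}

/-- hyperbolic data on `T` with base point `s` -/
structure Hyp (M : CoxeterMatrix S) (T : Finset S) (s : S) (y : S → ℝ) (μ : ℝ) (ρ : S → ℕ) : Prop where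
  cnt : Cnt M T
  mem : s ∈ T
  pos : ∀ u, 0 < y u
  neg : μ < 0
  eig : ∀ u ∈ T, Car M T y u = μ * y u
  inj : Function.Injective ρ
  bfs : ∀ u ∈ T, u ≠ s → ρ s < ρ u ∧ ∃ u' ∈ T, adj M u u' ≠ 0 ∧ ρ u' < ρ u

/-- `q` is below `p` at the level `n` -/
def Low (Q : Mdl M) (x : Q.X) (n : ℤ) (y : S → ℝ) (ρ : S → ℕ) (q p : S × ArtinGroup M) : Prop :=
  Q.v (q.2 • x) n q.1 / y q.1 < Q.v (p.2 • x) n p.1 / y p.1 ∨
    (Q.v (q.2 • x) n q.1 / y q.1 = Q.v (p.2 • x) n p.1 / y p.1 ∧ ρ q.1 < ρ p.1)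

variable {T : Finset S} {s : S} {y : S → ℝ} {μ : ℝ} {ρ : S → ℕ}

theorem desc_car (U : Finset S) (H : ℝ) (y : S → ℝ) (u : S) : Car M U (fun u => H * y u) u = H * Car M U y u := by
  simp only [Car, mul_sub, mul_sum]
  congr 1
  · ring
  · exact sum_congr rfl fun _ _ => by ring

theorem desc_slack (Q : Mdl M) (hy : Hyp M T s y μ ρ) (a : ArtinGroup M) {n : ℤ} {H : ℝ} (hH : 0 ≤ H) (hn : n = 0 ∨ H ≠ 0) :
    H * (μ * y s) < Q.fr (a • Q.P s) n s := by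
  have h1 := mul_neg_of_neg_of_pos hy.neg (hy.pos s)
  rcases hn with rfl | hn
  · rw [Q.fr_smul]
    exact (mul_nonpos_of_nonneg_of_nonpos hH h1.le).trans_lt
      (lt_of_le_of_ne (Q.fr_nonneg _ _ _) ((Q.P_fr s 0 s).2 ⟨rfl, rfl⟩).symm)
  · exact (mul_neg_of_pos_of_neg (lt_of_le_of_ne hH hn.symm) h1).trans_le (Q.fr_nonneg _ _ _)

/-- the descending link is not empty -/
theorem desc_ne (Q : Mdl M) (hPF : S_PF M) (hC : ∀ T, S_C Q T) (hy : Hyp M T s y μ ρ) {n : ℤ} (hn : 0 ≤ n)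
    {p : S × ArtinGroup M} (hp : Q.Vx T (Q.P s) n p) (hn' : n = 0 ∨ Q.v (p.2 • Q.P s) n p.1 ≠ 0)
    (hm : ¬ (p.1 = s ∧ p.2 ∈ AP M (T.erase s))) :
    ∃ q, Q.Vx T (Q.P s) n q ∧ q.1 ≠ p.1 ∧ q.2 * p.2⁻¹ ∈ AP M (T.erase p.1) ∧ Low Q (Q.P s) n y ρ q p := by
  obtain ⟨t, a⟩ := p
  set H := Q.v (a • Q.P s) n t / y t with hH
  have hH0 : 0 ≤ H := div_nonneg (Q.v_nonneg _ _ _) (hy.pos t).le
  have hHt : Q.v (a • Q.P s) n t = H * y t := by rw [hH, div_mul_cancel₀ _ (hy.pos t).ne']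
  have hcar : ∀ u ∈ T, Car M T (fun u => H * y u) u = H * (μ * y u) := fun u hu => by rw [desc_car, hy.eig u hu]
  have hle : ∀ u, H * (μ * y u) ≤ 0 := fun u =>
    mul_nonpos_of_nonneg_of_nonpos hH0 (mul_neg_of_neg_of_pos hy.neg (hy.pos u)).le
  obtain ⟨c, hc, hD⟩ := thr Q hPF T (Q.P s) n (fun u => H * y u) ρ (ρ t) (fun u hu => by
    rw [hcar u hu]
    exact (hle u).trans ((Q.fr_nonneg _ _ _).trans (fin_fr_le_b Q hPF T _ n u))) (fun u hu _ => by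
    by_cases hus : u = s
    · left
      rw [hcar u hu, hus]
      have h1 := desc_slack Q hy 1 hH0 (hn'.imp_right fun h h' => h (by rw [hHt, h', zero_mul]))
      rw [one_smul] at h1
      have h2 := fin_fr_le_b Q hPF T (Q.P s) n s
      linarith
    · exact Or.inr (hy.bfs u hu hus).2)
  have h1 : Q.D T (Q.P s) n c (t, a) := (hD _).2 ⟨hp, Or.inr ⟨hHt, le_rfl⟩⟩
  have h2 : Q.D T (Q.P s) n c (s, 1) := by
    refine (hD _).2 ⟨⟨hy.mem, one_mem _, fun k _ => by rw [one_smul, Q.P_v]⟩, ?_⟩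
    simp only [one_smul, Q.P_v]
    refine (mul_nonneg hH0 (hy.pos s).le).lt_or_eq.imp_right fun h => ⟨h, ?_⟩
    by_cases hts : t = s
    · rw [hts]
    · exact (hy.bfs t hp.1 hts).1.le
  have hO := fin_out Q T s (one_mem _) hn
  rw [one_smul] at hO
  rcases conn_exit (hC T _ n c hO hc _ _ h1 h2) with h3 | ⟨q, h3, h4, h5⟩
  · obtain ⟨h3, h4⟩ := h3
    simp only at h3 h4
    subst h3
    exact absurd ⟨rfl, by simpa using h4⟩ hm
  · obtain ⟨h6, h7⟩ := (hD q).1 h3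
    refine ⟨q, h6, h4, h5, h7.imp (fun h => (div_lt_iff₀ (hy.pos _)).2 h) fun h => ⟨?_, lt_of_le_of_ne h.2 fun h' => h4 (hy.inj h')⟩⟩
    rw [h.1, mul_div_cancel_right₀ _ (hy.pos _).ne']

theorem desc_min (Q : Mdl M) (hy : ∀ u, 0 < y u) (ρ : S → ℕ) {U : Finset S} {x : Q.X} {n : ℤ} (hne : ∃ q, Q.Vx U x n q) :
    ∃ q, Q.Vx U x n q ∧ ∀ q', Q.Vx U x n q' → Q.v (q.2 • x) n q.1 / y q.1 ≤ Q.v (q'.2 • x) n q'.1 / y q'.1 ∧
      (Q.v (q'.2 • x) n q'.1 / y q'.1 = Q.v (q.2 • x) n q.1 / y q.1 → ρ q.1 ≤ ρ q'.1) := by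
  obtain ⟨rk, hrk⟩ := exists_rank Q hy
  obtain ⟨q, hq, hmin⟩ := (InvImage.wf (fun q : S × ArtinGroup M => toLex (rk (Q.v (q.2 • x) n q.1 / y q.1), ρ q.1))
    (wellFounded_lt (α := ℕ ×ₗ ℕ))).has_min {q | Q.Vx U x n q} hne
  refine ⟨q, hq, fun q' hq' => ⟨not_lt.1 fun h => hmin q' hq' ?_, fun h => not_lt.1 fun h' => hmin q' hq' ?_⟩⟩
  · exact Prod.Lex.toLex_lt_toLex.2 (Or.inl (hrk _ _ _ _ h))
  · exact Prod.Lex.toLex_lt_toLex.2 (Or.inr ⟨congrArg rk h, h'⟩)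

/-- a lower neighbour that is fixed by everything that fixes `p` and `P s` -/
theorem desc_fix (Q : Mdl M) (hPF : S_PF M) (hC : ∀ T, S_C Q T) (hy : Hyp M T s y μ ρ) {n : ℤ} (hn : 0 ≤ n)
    {p : S × ArtinGroup M} (hp : Q.Vx T (Q.P s) n p) (hn' : n = 0 ∨ Q.v (p.2 • Q.P s) n p.1 ≠ 0)
    (hm : ¬ (p.1 = s ∧ p.2 ∈ AP M (T.erase s))) :
    ∃ q, Q.Vx T (Q.P s) n q ∧ q.1 ≠ p.1 ∧ q.2 * p.2⁻¹ ∈ AP M (T.erase p.1) ∧ Low Q (Q.P s) n y ρ q p ∧
      ∀ h, h • Q.P s = Q.P s → p.2 * h * p.2⁻¹ ∈ AP M (T.erase p.1) → q.2 * h * q.2⁻¹ ∈ AP M (T.erase q.1) := by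
  obtain ⟨q₀, k1, k2, k3, k4⟩ := desc_ne Q hPF hC hy hn hp hn' hm
  obtain ⟨t, a⟩ := p
  have ht : t ∈ T := hp.1
  have ha : a ∈ AP M T := hp.2.1
  set H := Q.v (a • Q.P s) n t / y t with hH
  have hH0 : 0 ≤ H := div_nonneg (Q.v_nonneg _ _ _) (hy.pos t).le
  have hHt : Q.v (a • Q.P s) n t = H * y t := by rw [hH, div_mul_cancel₀ _ (hy.pos t).ne']
  have e0 : (q₀.2 * a⁻¹) • a • Q.P s = q₀.2 • Q.P s := by rw [smul_smul, inv_mul_cancel_right]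
  have l0 : Q.Vx (T.erase t) (a • Q.P s) n (q₀.1, q₀.2 * a⁻¹) :=
    ⟨mem_erase.2 ⟨k2, k1.1⟩, k3, fun k hk => by rw [e0]; exact k1.2.2 k hk⟩
  have hO : Q.Out (T.erase t) n (a • Q.P s) := fun k hk u hu => by
    refine ⟨fin_fr_P Q s a (by omega) u, fun w hw hw' => ?_⟩
    by_cases hwt : w = t
    · rw [hwt]; exact hp.2.2 k hk
    · exact (fin_out Q T s ha hn k hk u (mem_of_mem_erase hu)).2 w (fun h => hw (mem_erase.2 ⟨hwt, h⟩)) hw'
  have hsl : ∀ (H' : ℝ), ∀ u ∈ T.erase t, Car M (T.erase t) (fun u => H' * y u) u + Q.fr (a • Q.P s) n u +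
      adj M u t * y t * (H - H') - H' * (μ * y u) ≤ Q.b (T.erase t) (a • Q.P s) n u := fun H' u hu => by
    have h1 : Car M (T.erase t) y u = μ * y u + adj M u t * y t := by
      rw [← hy.eig u (mem_of_mem_erase hu), Car, Car, ← add_sum_erase T _ ht]
      ring
    have h2 : adj M u t * Q.v (a • Q.P s) n t ≤ ∑ w ∈ (T.erase t)ᶜ, adj M u w * Q.v (a • Q.P s) n w :=
      single_le_sum (f := fun w => adj M u w * Q.v (a • Q.P s) n w)
        (fun w _ => mul_nonneg (fin_adj hPF _ _) (Q.v_nonneg _ _ _)) (by simp)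
    rw [desc_car, h1, Mdl.b]
    rw [hHt] at h2
    linarith
  -- the conclusion from a minimal vertex of the link
  have fin : ∀ (ρ' : S → ℕ) (q : S × ArtinGroup M) (H' : ℝ), Function.Injective ρ' → Q.Vx (T.erase t) (a • Q.P s) n q →
      H' = Q.v (q.2 • a • Q.P s) n q.1 / y q.1 →
      (∀ q', Q.Vx (T.erase t) (a • Q.P s) n q' → H' ≤ Q.v (q'.2 • a • Q.P s) n q'.1 / y q'.1 ∧
        (Q.v (q'.2 • a • Q.P s) n q'.1 / y q'.1 = H' → ρ' q.1 ≤ ρ' q'.1)) →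
      (H' < H ∨ (H' = H ∧ ρ q.1 < ρ t)) →
      (∀ u ∈ T.erase t, ρ' u ≤ ρ' q.1 → 0 < Q.fr (a • Q.P s) n u + adj M u t * y t * (H - H') - H' * (μ * y u) ∨
        ∃ u' ∈ T.erase t, adj M u u' ≠ 0 ∧ ρ' u' < ρ' u) →
      ∃ q, Q.Vx T (Q.P s) n q ∧ q.1 ≠ t ∧ q.2 * a⁻¹ ∈ AP M (T.erase t) ∧ Low Q (Q.P s) n y ρ q (t, a) ∧
        ∀ h, h • Q.P s = Q.P s → a * h * a⁻¹ ∈ AP M (T.erase t) → q.2 * h * q.2⁻¹ ∈ AP M (T.erase q.1) := by
    intro ρ' q H' hρ hq hH' hmin hlow hb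
    have hH'0 : 0 ≤ H' := hH' ▸ div_nonneg (Q.v_nonneg _ _ _) (hy.pos _).le
    have hle : H' ≤ H := hlow.elim le_of_lt fun h => h.1.le
    refine ⟨(q.1, q.2 * a), ⟨mem_of_mem_erase hq.1, mul_mem (fin_mono (erase_subset _ _) hq.2.1) ha,
      fun k hk => by rw [mul_smul]; exact hq.2.2 k hk⟩, (mem_erase.1 hq.1).1, by simpa using hq.2.1, ?_, fun h h1 h2 => ?_⟩
    · unfold Low
      simp only [mul_smul, ← hH', ← hH]
      exact hlow
    · have := fixed_min Q hPF (hC _) hO (θ := fun u => H' * y u) hρ (fun u hu => by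
          have h3 := hsl H' u hu
          have h4 := Q.fr_nonneg (a • Q.P s) n u
          have h5 : 0 ≤ adj M u t * y t * (H - H') :=
            mul_nonneg (mul_nonneg (fin_adj hPF _ _) (hy.pos t).le) (sub_nonneg.2 hle)
          have h6 : H' * (μ * y u) ≤ 0 :=
            mul_nonpos_of_nonneg_of_nonpos hH'0 (mul_neg_of_neg_of_pos hy.neg (hy.pos u)).le
          linarith) hq (by rw [hH', div_mul_cancel₀ _ (hy.pos _).ne'])
        (fun q' hq' => ⟨(le_div_iff₀ (hy.pos _)).1 (hmin q' hq').1, fun h => (hmin q' hq').2 (by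
          rw [h, mul_div_cancel_right₀ _ (hy.pos _).ne'])⟩)
        (fun u hu h3 => (hb u hu h3).imp_left fun h4 => by linarith [hsl H' u hu]) h2
        (by rw [smul_smul, inv_mul_cancel_right, mul_smul, h1])
      rw [show q.2 * a * h * (q.2 * a)⁻¹ = q.2 * (a * h * a⁻¹) * q.2⁻¹ by group]
      exact fin_mono (erase_subset_erase _ (erase_subset _ _)) this
  obtain ⟨q, hq, hmin⟩ := desc_min Q hy.pos ρ ⟨_, l0⟩
  have m0 := hmin _ l0
  simp only [e0] at m0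
  by_cases hc : Q.v (q.2 • a • Q.P s) n q.1 / y q.1 < H
  · obtain ⟨ρ', hρ', hb'⟩ := hPF.2.2.2.1 T hy.cnt t ht
    obtain ⟨q', hq', hmin'⟩ := desc_min Q hy.pos ρ' ⟨_, l0⟩
    have hlt := (hmin' q hq).1.trans_lt hc
    refine fin ρ' q' _ hρ' hq' rfl hmin' (Or.inl hlt) fun u hu _ => ?_
    obtain ⟨u', h1, h2, h3⟩ := (hb' u (mem_of_mem_erase hu) (mem_erase.1 hu).1).2
    by_cases h4 : u' = t
    · left
      have h5 := Q.fr_nonneg (a • Q.P s) n u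
      have h6 : 0 < adj M u t * y t * (H - Q.v (q'.2 • a • Q.P s) n q'.1 / y q'.1) :=
        mul_pos (mul_pos (lt_of_le_of_ne (fin_adj hPF _ _) (h4 ▸ h2).symm) (hy.pos t)) (sub_pos.2 hlt)
      have h7 : Q.v (q'.2 • a • Q.P s) n q'.1 / y q'.1 * (μ * y u) ≤ 0 :=
        mul_nonpos_of_nonneg_of_nonpos (div_nonneg (Q.v_nonneg _ _ _) (hy.pos _).le)
          (mul_neg_of_neg_of_pos hy.neg (hy.pos u)).le
      linarith
    · exact Or.inr ⟨u', mem_erase.2 ⟨h4, h1⟩, h2, h3⟩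
  · have k5 : Q.v (q₀.2 • Q.P s) n q₀.1 / y q₀.1 = H ∧ ρ q₀.1 < ρ t :=
      k4.resolve_left fun h => hc (m0.1.trans_lt h)
    have k6 : Q.v (q.2 • a • Q.P s) n q.1 / y q.1 = H := le_antisymm (k5.1 ▸ m0.1) (not_lt.1 hc)
    have k7 : ρ q.1 < ρ t := (m0.2 (k5.1.trans k6.symm)).trans_lt k5.2
    refine fin ρ q _ hy.inj hq rfl hmin (Or.inr ⟨k6, k7⟩) fun u hu h0 => ?_
    by_cases hus : u = s
    · left
      have h1 := desc_slack Q hy a hH0 (hn'.imp_right fun h h' => h (by rw [hHt, h', zero_mul]))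
      rw [k6, sub_self, mul_zero, hus]
      linarith
    · obtain ⟨u', h1, h2, h3⟩ := (hy.bfs u (mem_of_mem_erase hu) hus).2
      exact Or.inr ⟨u', mem_erase.2 ⟨fun h => by rw [h] at h3; omega, h1⟩, h2, h3⟩

end Crest.Agent.R175.P
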