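import Crest.Agent.R175.Fin.Basic

/-! R175/Fin/Trans (owner helper17): from `S_I` to the statement, and the change of universe. -/

set_option autoImplicit false
set_option linter.unusedSectionVars false
set_option linter.unusedVariables false

open Finset Crest.GroupTheory

noncomputable section

namespace Crest.Agent.R175.P

variable {S : Type} [Fintype S] [DecidableEq S] {M : CoxeterMatrix S}

/-- membership in a conjugate -/
theorem tr_mem_conj {G : Type*} [Group G] (H : Subgroup G) (g x : G) :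
    x ∈ H.map (MulAut.conj g).toMonoidHom ↔ g⁻¹ * x * g ∈ H := by
  constructor
  · rintro ⟨y, hy, rfl⟩
    simpa [mul_assoc] using hy
  · intro hx
    exact ⟨_, hx, by simp [mul_assoc]⟩

theorem tr_univ_top : AP M univ = ⊤ := by
  have : ((univ : Finset S) : Set S) = Set.univ := by simp
  rw [AP, this, stdParabolic, Set.image_univ]
  exact PresentedGroup.closure_range_of _

/-- sets of generators are finsets (`Set.toFinset`); `P ⊓ Q = g (A_X ⊓ g⁻¹ g' A_Y ..) g⁻¹`, `AP M univ = ⊤` -/
theorem par_of_sI (h : S_I M univ) (P Q : Subgroup (ArtinGroup M)) (hP : IsParabolic M P) (hQ : IsParabolic M Q) :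
    IsParabolic M (P ⊓ Q) := by
  obtain ⟨X, g, rfl⟩ := hP
  obtain ⟨Y, g', rfl⟩ := hQ
  obtain ⟨X', rfl⟩ : ∃ X' : Finset S, (X' : Set S) = X := ⟨(Set.toFinite X).toFinset, by simp⟩
  obtain ⟨Y', rfl⟩ : ∃ Y' : Finset S, (Y' : Set S) = Y := ⟨(Set.toFinite Y).toFinset, by simp⟩
  obtain ⟨a, -, Z, -, hZ⟩ := h X' (subset_univ _) Y' (subset_univ _) (g⁻¹ * g') (by rw [tr_univ_top]; trivial)
  refine ⟨(Z : Set S), g * a, ?_⟩
  ext x
  rw [Subgroup.mem_inf, tr_mem_conj, tr_mem_conj, tr_mem_conj]
  have h1 := hZ (g⁻¹ * x * g)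
  have e1 : (g⁻¹ * g')⁻¹ * (g⁻¹ * x * g) * (g⁻¹ * g') = g'⁻¹ * x * g' := by group
  have e2 : a⁻¹ * (g⁻¹ * x * g) * a = (g * a)⁻¹ * x * (g * a) := by group
  rw [e1, e2] at h1
  exact h1

theorem tr_lift_alt {A : Type*} {G : Type*} [Group G] {B : Type*} (f : A → B) (φ : FreeGroup B →* G) (s t : A) (m : ℕ) :
    FreeGroup.lift (fun a => φ (FreeGroup.of (f a))) (artinAltWord s t m) = φ (artinAltWord (f s) (f t) m) := by
  induction m generalizing s t with
  | zero => exact (map_one _).trans (map_one φ).symm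
  | succ m ih =>
    change FreeGroup.lift _ (FreeGroup.of s * artinAltWord t s m) = φ (FreeGroup.of (f s) * artinAltWord (f t) (f s) m)
    rw [map_mul, map_mul, ih, FreeGroup.lift_apply_of]

/-- a matrix-preserving map of the generators gives a homomorphism of the Artin groups -/
def tr_hom {A B : Type*} (M : CoxeterMatrix A) (N : CoxeterMatrix B) (f : A → B) (hf : ∀ s t, N.M (f s) (f t) = M.M s t) :
    ArtinGroup M →* ArtinGroup N :=
  PresentedGroup.toGroup (f := fun a => PresentedGroup.mk (artinRelators N) (FreeGroup.of (f a))) (by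
    rintro _ ⟨⟨s, t⟩, rfl⟩
    simp only [map_mul, map_inv, tr_lift_alt]
    rw [← map_inv, ← map_mul, ← hf]
    exact PresentedGroup.one_of_mem ⟨(f s, f t), by simp only [hf]⟩)

theorem tr_hom_gen {A B : Type*} (M : CoxeterMatrix A) (N : CoxeterMatrix B) (f : A → B)
    (hf : ∀ s t, N.M (f s) (f t) = M.M s t) (s : A) : tr_hom M N f hf (artinGen M s) = artinGen N (f s) :=
  PresentedGroup.toGroup.of _

theorem tr_map_par {A B : Type*} {M : CoxeterMatrix A} {N : CoxeterMatrix B} (f : A → B) (φ : ArtinGroup M →* ArtinGroup N)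
    (hφ : ∀ s, φ (artinGen M s) = artinGen N (f s)) {P : Subgroup (ArtinGroup M)} (hP : IsParabolic M P) :
    IsParabolic N (P.map φ) := by
  obtain ⟨X, g, rfl⟩ := hP
  refine ⟨f '' X, φ g, ?_⟩
  have h1 : (stdParabolic M X).map φ = stdParabolic N (f '' X) := by
    rw [stdParabolic, stdParabolic, MonoidHom.map_closure, Set.image_image, Set.image_image]
    simp only [hφ]
  rw [← h1, Subgroup.map_map, Subgroup.map_map]
  congr 1
  ext s
  simp

/-- `e : S' ≃ Fin n`, `M' = M.reindex e`, an isomorphism `ArtinGroup M ≃* ArtinGroup M'` matching the generators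
(`PresentedGroup.toGroup` both ways, or `PresentedGroup.equivPresentedGroup`) preserves `IsParabolic` -/
theorem par_univ (h : ∀ (n : ℕ) (M : CoxeterMatrix (Fin n)) (P Q : Subgroup (ArtinGroup M)), IsParabolic M P → IsParabolic M Q →
      IsParabolic M (P ⊓ Q))
    (S' : Type*) [Finite S'] (M : CoxeterMatrix S') (P Q : Subgroup (ArtinGroup M)) (hP : IsParabolic M P)
    (hQ : IsParabolic M Q) : IsParabolic M (P ⊓ Q) := by
  set e := Finite.equivFin S'
  have h1 : ∀ s t, (M.reindex e).M (e s) (e t) = M.M s t := fun s t => by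
    have := M.reindex_apply e (e s) (e t)
    simpa using this
  have h2 : ∀ s t, M.M (e.symm s) (e.symm t) = (M.reindex e).M s t := fun s t => (M.reindex_apply e s t).symm
  have hc : (tr_hom (M.reindex e) M e.symm h2).comp (tr_hom M (M.reindex e) e h1) = MonoidHom.id _ := by
    refine PresentedGroup.ext fun s => ?_
    change tr_hom (M.reindex e) M e.symm h2 (tr_hom M (M.reindex e) e h1 (artinGen M s)) = artinGen M s
    rw [tr_hom_gen, tr_hom_gen, Equiv.symm_apply_apply]
  have hinj : Function.Injective (tr_hom M (M.reindex e) e h1) := by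
    intro x y hxy
    have hx := DFunLike.congr_fun hc x
    have hy := DFunLike.congr_fun hc y
    simp only [MonoidHom.comp_apply, MonoidHom.id_apply] at hx hy
    rw [← hx, ← hy, hxy]
  have h3 := h _ (M.reindex e) _ _ (tr_map_par e _ (tr_hom_gen M _ e h1) hP) (tr_map_par e _ (tr_hom_gen M _ e h1) hQ)
  rw [← Subgroup.map_inf _ _ _ hinj] at h3
  have h4 := tr_map_par e.symm _ (tr_hom_gen _ M e.symm h2) h3
  rwa [Subgroup.map_map, hc, Subgroup.map_id] at h4

end Crest.Agent.R175.P
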