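import Crest.Agent.R175.Fin.Prod
import Crest.Agent.R175.Fin.Desc
import Crest.Agent.R175.Fin.Trans

/-! R175/Fin/Main (owner helper17): the intersection theorem. -/

set_option autoImplicit false
set_option linter.unusedSectionVars false
set_option linter.unusedVariables false

open Finset Crest.GroupTheory

noncomputable section

namespace Crest.Agent.R175.P

variable {S : Type} [Fintype S] [DecidableEq S] {M : CoxeterMatrix S}

theorem par_hyp (Q : Mdl M) (hPF : S_PF M) (hC : ∀ T, S_C Q T) {T : Finset S} {s : S} {y : S → ℝ} {μ : ℝ} {ρ : S → ℕ}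
    (hy : Hyp M T s y μ ρ) (ih : ∀ T' ⊂ T, S_I M T') {X : Finset S} (hX : X ⊆ T.erase s) {t : S} (ht : t ∈ T)
    {a : ArtinGroup M} (ha : a ∈ AP M T) {b : ArtinGroup M} (hb : b ∈ AP M (T.erase t)) {Z : Finset S} (hZ : Z ⊆ T.erase t) :
    Par X (AP M X ⊓ cjA (a⁻¹ * b) Z) := by
  have hv := vdl Q hPF hC
  obtain ⟨rk, hrk⟩ := exists_rank Q hy.pos
  have hsX : s ∉ X := fun h => notMem_erase s T (hX h)
  let C : S × ArtinGroup M → Prop := fun p =>
    ∀ b ∈ AP M (T.erase p.1), ∀ Z ⊆ T.erase p.1, Par X (AP M X ⊓ cjA (p.2⁻¹ * b) Z)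
  have step : ∀ n : ℤ, 0 ≤ n → (∀ p, Q.Vx T (Q.P s) n p → n ≠ 0 → Q.v (p.2 • Q.P s) n p.1 = 0 → C p) →
      ∀ p, Q.Vx T (Q.P s) n p → C p := by
    intro n hn prev p
    induction p using (InvImage.wf (fun q : S × ArtinGroup M => toLex (rk (Q.v (q.2 • Q.P s) n q.1 / y q.1), ρ q.1))
      (wellFounded_lt (α := ℕ ×ₗ ℕ))).induction with
    | h p ihp =>
      intro hp
      by_cases hn' : n = 0 ∨ Q.v (p.2 • Q.P s) n p.1 ≠ 0
      swap
      · rw [not_or, not_not] at hn'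
        exact prev p hp hn'.1 hn'.2
      intro b hb Z hZ
      by_cases hm : p.1 = s ∧ p.2 ∈ AP M (T.erase s)
      · rw [hm.1] at hb hZ
        exact sI_iff.1 (ih _ (erase_ssubset hy.mem)) X hX Z hZ _ (mul_mem (inv_mem hm.2) hb)
      obtain ⟨q, h1, h2, h3, h4, h5⟩ := desc_fix Q hPF hC hy hn hp hn' hm
      obtain ⟨a', ha', Z', hZ', e⟩ := sI_iff.1 (ih _ (erase_ssubset hp.1)) ((T.erase p.1).erase q.1) (erase_subset _ _) Z hZ
        _ (mul_mem h3 hb)
      have hsub : (T.erase p.1).erase q.1 ⊆ T.erase q.1 := erase_subset_erase _ (erase_subset _ _)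
      have h6 := ihp q (by
        rcases h4 with h | h
        · exact Prod.Lex.toLex_lt_toLex.2 (Or.inl (hrk _ _ _ _ h))
        · exact Prod.Lex.toLex_lt_toLex.2 (Or.inr ⟨congrArg rk h.1, h.2⟩)) h1 a' (fin_mono hsub ha') Z' (hZ'.trans hsub)
      convert h6 using 1
      ext w
      have e' := SetLike.ext_iff.1 e (q.2 * w * q.2⁻¹)
      simp only [Subgroup.mem_inf, mem_cjA] at e' ⊢
      rw [show (q.2 * p.2⁻¹ * b)⁻¹ * (q.2 * w * q.2⁻¹) * (q.2 * p.2⁻¹ * b) = (p.2⁻¹ * b)⁻¹ * w * (p.2⁻¹ * b) by group] at e'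
      rw [show (q.2⁻¹ * a')⁻¹ * w * (q.2⁻¹ * a') = a'⁻¹ * (q.2 * w * q.2⁻¹) * a' by group, ← e']
      refine and_congr_right fun hw => ⟨fun h => ⟨?_, h⟩, fun h => h.2⟩
      have h7 : p.2 * w * p.2⁻¹ ∈ AP M (T.erase p.1) := by
        have := mul_mem (mul_mem hb (fin_mono hZ h)) (inv_mem hb)
        rwa [show b * ((p.2⁻¹ * b)⁻¹ * w * (p.2⁻¹ * b)) * b⁻¹ = p.2 * w * p.2⁻¹ by group] at this
      have h8 : q.2 * w * q.2⁻¹ ∈ AP M (T.erase p.1) := by
        have := mul_mem (mul_mem h3 h7) (inv_mem h3)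
        rwa [show q.2 * p.2⁻¹ * (p.2 * w * p.2⁻¹) * (q.2 * p.2⁻¹)⁻¹ = q.2 * w * q.2⁻¹ by group] at this
      refine fin_mono (fun u hu => ?_) (hv _ _ _ h8 (h5 w (fin_fix Q hw hsX) h7))
      rw [mem_inter] at hu
      exact mem_erase.2 ⟨(mem_erase.1 hu.2).1, hu.1⟩
  have all : ∀ k : ℕ, ∀ p, Q.Vx T (Q.P s) k p → C p := by
    intro k
    induction k with
    | zero => exact step _ le_rfl fun p _ h => absurd rfl h
    | succ k ihk =>
      refine step _ (Int.natCast_nonneg _) fun p hp _ h0 => ihk p ⟨hp.1, hp.2.1, fun n hn => ?_⟩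
      rcases (show ((k + 1 : ℕ) : ℤ) < n ∨ n = ((k + 1 : ℕ) : ℤ) by omega) with h | h
      · exact hp.2.2 n h
      · rw [h]; exact h0
  obtain ⟨m, hm⟩ := Q.bdd (a • Q.P s)
  exact all m.toNat (t, a) ⟨ht, ha, fun n hn => (hm n (by omega) t).1⟩ b hb Z hZ

theorem inter (Q : Mdl M) (hPF : S_PF M) (hC : ∀ T, S_C Q T) (hF : ∀ U, FinT M U → S_F Q U) : ∀ T, S_I M T := by
  have hv := vdl Q hPF hC
  intro T
  induction T using Finset.strongInduction with
  | H T ih =>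
    refine sI_of_sI1 hv ?_
    by_cases hT : Cnt M T
    swap
    · exact sI1_prod hPF hv hT ih
    intro X hX r hr g hg
    by_cases hXT : X = T
    · subst hXT
      refine ⟨g, hg, X.erase r, erase_subset _ _, inf_eq_right.2 fun w hw => ?_⟩
      have := mul_mem (mul_mem hg (fin_mono (erase_subset _ _) (mem_cjA.1 hw))) (inv_mem hg)
      rwa [show g * (g⁻¹ * w * g) * g⁻¹ = w by group] at this
    by_cases hf : FinT M X
    · exact par_fin Q hPF hC hX (hF X hf) r hg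
    have hlt : X ⊂ T := Finset.ssubset_iff_subset_ne.2 ⟨hX, hXT⟩
    obtain ⟨-, y, μ, h1, h2, h3, h4⟩ := hPF.2.2.1 T hT fun h => hf (hPF.2.1 T X hX h)
    obtain ⟨s, hs, hsX⟩ := exists_of_ssubset hlt
    obtain ⟨ρ, h5, h6⟩ := hPF.2.2.2.1 T hT s hs
    have := par_hyp Q hPF hC ⟨hT, hs, h1, lt_of_le_of_ne h2 fun h => hf (h4 h X hlt), h3, h5, h6⟩ ih
      (subset_erase.2 ⟨hX, hsX⟩) hr (inv_mem hg) (one_mem _) Subset.rfl
    rwa [inv_inv, mul_one] at this

end Crest.Agent.R175.P
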