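import Crest.Agent.R175.Fin.Basic

/-! R175/Fin/Prod (owner helper17): finite type and disconnected diagrams. -/

set_option autoImplicit false
set_option linter.unusedSectionVars false
set_option linter.unusedVariables false

open Finset Crest.GroupTheory

noncomputable section

namespace Crest.Agent.R175.P

variable {S : Type} [Fintype S] [DecidableEq S] {M : CoxeterMatrix S}

/-- `S_F` for the object `g • P r`: `h • g • P r = g • P r ↔ g⁻¹ * h * g ∈ A_(T - r)` (`stab_P`) -/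
theorem par_fin (Q : Mdl M) (hPF : S_PF M) (hC : ∀ T, S_C Q T) {T X : Finset S} (hX : X ⊆ T) (hF : S_F Q X) (r : S)
    {g : ArtinGroup M} (hg : g ∈ AP M T) : Par X (AP M X ⊓ cjA g (T.erase r)) := by
  obtain ⟨a, ha, N, hN, hst⟩ := hF (g • Q.P r)
  refine ⟨a⁻¹, (AP M X).inv_mem ha, N, hN, ?_⟩
  have key : ∀ h ∈ AP M X, (h • g • Q.P r = g • Q.P r ↔ g⁻¹ * h * g ∈ AP M (T.erase r)) := by
    intro h hh
    have hm : g⁻¹ * h * g ∈ AP M T :=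
      (AP M T).mul_mem ((AP M T).mul_mem ((AP M T).inv_mem hg) (fin_mono hX hh)) hg
    rw [← stab_P Q hPF hC hm r, mul_smul, mul_smul, inv_smul_eq_iff]
  ext h
  rw [Subgroup.mem_inf, mem_cjA, mem_cjA, inv_inv]
  constructor
  · rintro ⟨h1, h2⟩
    exact (hst h h1).1 ((key h h1).2 h2)
  · intro h1
    have h2 : h ∈ AP M X := by
      have : h = a⁻¹ * (a * h * a⁻¹) * a := by group
      rw [this]
      exact (AP M X).mul_mem ((AP M X).mul_mem ((AP M X).inv_mem ha) (fin_mono hN h1)) ha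
    exact ⟨h2, (key h h2).1 ((hst h h2).2 h1)⟩

/-- `A_X` and `A_Y` commute when there is no edge between the disjoint sets `X` and `Y` -/
theorem ap_comm (hPF : S_PF M) {X Y : Finset S} (hd : Disjoint X Y) (h : ∀ s ∈ X, ∀ t ∈ Y, adj M s t = 0)
    {a b : ArtinGroup M} (ha : a ∈ AP M X) (hb : b ∈ AP M Y) : a * b = b * a := by
  have h1 : ∀ s ∈ X, σ M s * b = b * σ M s := by
    intro s hs
    have : AP M Y ≤ Subgroup.centralizer {σ M s} := by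
      refine (Subgroup.closure_le _).2 ?_
      rintro _ ⟨t, ht, rfl⟩
      rw [SetLike.mem_coe, Subgroup.mem_centralizer_iff]
      rintro _ rfl
      refine (hPF.1 s t).2.2 ?_ (h s hs t ht)
      rintro rfl
      exact Finset.disjoint_left.1 hd hs ht
    exact Subgroup.mem_centralizer_iff.1 (this hb) _ rfl
  have : AP M X ≤ Subgroup.centralizer {b} := by
    refine (Subgroup.closure_le _).2 ?_
    rintro _ ⟨s, hs, rfl⟩
    rw [SetLike.mem_coe, Subgroup.mem_centralizer_iff]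
    rintro _ rfl
    exact (h1 s hs).symm
  exact (Subgroup.mem_centralizer_iff.1 (this ha) _ rfl).symm

theorem ap_split (hPF : S_PF M) {X Y : Finset S} (hd : Disjoint X Y) (h : ∀ s ∈ X, ∀ t ∈ Y, adj M s t = 0)
    {g : ArtinGroup M} (hg : g ∈ AP M (X ∪ Y)) : ∃ a ∈ AP M X, ∃ b ∈ AP M Y, g = a * b := by
  induction hg using Subgroup.closure_induction with
  | mem x hx =>
    obtain ⟨s, hs, rfl⟩ := hx
    rcases Finset.mem_union.1 hs with hs | hs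
    · exact ⟨_, fin_gen hs, 1, (AP M Y).one_mem, (mul_one _).symm⟩
    · exact ⟨1, (AP M X).one_mem, _, fin_gen hs, (one_mul _).symm⟩
  | one => exact ⟨1, (AP M X).one_mem, 1, (AP M Y).one_mem, (mul_one _).symm⟩
  | mul x y _ _ hx hy =>
    obtain ⟨a, ha, b, hb, rfl⟩ := hx
    obtain ⟨a', ha', b', hb', rfl⟩ := hy
    refine ⟨a * a', (AP M X).mul_mem ha ha', b * b', (AP M Y).mul_mem hb hb', ?_⟩
    have := ap_comm hPF hd h ha' hb
    calc a * b * (a' * b') = a * (b * a') * b' := by group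
      _ = a * (a' * b) * b' := by rw [this]
      _ = a * a' * (b * b') := by group
  | inv x _ hx =>
    obtain ⟨a, ha, b, hb, rfl⟩ := hx
    refine ⟨a⁻¹, (AP M X).inv_mem ha, b⁻¹, (AP M Y).inv_mem hb, ?_⟩
    rw [mul_inv_rev]
    exact (ap_comm hPF hd h ((AP M X).inv_mem ha) ((AP M Y).inv_mem hb)).symm

theorem pr_conj (hPF : S_PF M) {X Y : Finset S} (hd : Disjoint X Y) (h : ∀ s ∈ X, ∀ t ∈ Y, adj M s t = 0)
    {g₁ g₂ h₁ h₂ : ArtinGroup M} (hg₁ : g₁ ∈ AP M X) (hg₂ : g₂ ∈ AP M Y) (hh₁ : h₁ ∈ AP M X) (hh₂ : h₂ ∈ AP M Y) :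
    (g₁ * g₂)⁻¹ * (h₁ * h₂) * (g₁ * g₂) = (g₁⁻¹ * h₁ * g₁) * (g₂⁻¹ * h₂ * g₂) := by
  have e1 := ap_comm hPF hd h hg₁ hh₂
  have e2 := ap_comm hPF hd h ((AP M X).mul_mem ((AP M X).mul_mem ((AP M X).inv_mem hg₁) hh₁) hg₁)
    ((AP M Y).inv_mem hg₂)
  calc (g₁ * g₂)⁻¹ * (h₁ * h₂) * (g₁ * g₂) = g₂⁻¹ * (g₁⁻¹ * h₁ * (h₂ * g₁)) * g₂ := by group
    _ = g₂⁻¹ * (g₁⁻¹ * h₁ * (g₁ * h₂)) * g₂ := by rw [e1]
    _ = (g₂⁻¹ * (g₁⁻¹ * h₁ * g₁)) * h₂ * g₂ := by group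
    _ = ((g₁⁻¹ * h₁ * g₁) * g₂⁻¹) * h₂ * g₂ := by rw [e2]
    _ = _ := by group

theorem pr_main (hPF : S_PF M) (hv : VdL M) {T₁ T₂ : Finset S} (hd : Disjoint T₁ T₂)
    (hadj : ∀ s ∈ T₁, ∀ t ∈ T₂, adj M s t = 0) (ih : S_I M T₁) {X : Finset S} (hX : X ⊆ T₁ ∪ T₂)
    {r : S} (hr : r ∈ T₁) {g : ArtinGroup M} (hg : g ∈ AP M (T₁ ∪ T₂)) :
    Par X (AP M X ⊓ cjA g ((T₁ ∪ T₂).erase r)) := by
  obtain ⟨g₁, hg₁, g₂, hg₂, rfl⟩ := ap_split hPF hd hadj hg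
  have hX1 : X ∩ T₁ ⊆ T₁ := Finset.inter_subset_right
  have hX2 : X ∩ T₂ ⊆ T₂ := Finset.inter_subset_right
  have hXU : X ∩ T₁ ∪ X ∩ T₂ = X := by
    rw [← Finset.inter_union_distrib_left]
    exact Finset.inter_eq_left.2 hX
  have hT2 : T₂ ⊆ (T₁ ∪ T₂).erase r := by
    intro t ht
    refine Finset.mem_erase.2 ⟨?_, Finset.mem_union_right _ ht⟩
    rintro rfl
    exact Finset.disjoint_left.1 hd hr ht
  have hT1 : T₁.erase r ⊆ (T₁ ∪ T₂).erase r := Finset.erase_subset_erase _ Finset.subset_union_left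
  have hT3 : (T₁ ∪ T₂).erase r ∩ T₁ ⊆ T₁.erase r := by
    intro t ht
    exact Finset.mem_erase.2 ⟨(Finset.mem_erase.1 (Finset.mem_inter.1 ht).1).1, (Finset.mem_inter.1 ht).2⟩
  obtain ⟨a, ha, Z, hZ, hE⟩ := sI_iff.1 ih (X ∩ T₁) hX1 (T₁.erase r) (Finset.erase_subset _ _) g₁ hg₁
  have hE' : ∀ h, (h ∈ AP M (X ∩ T₁) ∧ g₁⁻¹ * h * g₁ ∈ AP M (T₁.erase r)) ↔ a⁻¹ * h * a ∈ AP M Z := by
    intro h
    rw [← mem_cjA, ← mem_cjA, ← hE, Subgroup.mem_inf]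
  refine ⟨a, fin_mono Finset.inter_subset_left ha, Z ∪ X ∩ T₂,
    Finset.union_subset (hZ.trans Finset.inter_subset_left) Finset.inter_subset_left, ?_⟩
  ext h
  rw [Subgroup.mem_inf, mem_cjA, mem_cjA]
  constructor
  · rintro ⟨h1, h2⟩
    rw [← hXU] at h1
    obtain ⟨h₁, hh₁, h₂, hh₂, rfl⟩ := ap_split hPF (Finset.disjoint_of_subset_left hX1
      (Finset.disjoint_of_subset_right hX2 hd)) (fun s hs t ht => hadj s (hX1 hs) t (hX2 ht)) h1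
    rw [pr_conj hPF hd hadj hg₁ hg₂ (fin_mono hX1 hh₁) (fin_mono hX2 hh₂)] at h2
    have h3 : g₂⁻¹ * h₂ * g₂ ∈ AP M ((T₁ ∪ T₂).erase r) :=
      fin_mono hT2 ((AP M T₂).mul_mem ((AP M T₂).mul_mem ((AP M T₂).inv_mem hg₂) (fin_mono hX2 hh₂)) hg₂)
    have h4 : g₁⁻¹ * h₁ * g₁ ∈ AP M ((T₁ ∪ T₂).erase r) := (Subgroup.mul_mem_cancel_right _ h3).1 h2
    have h5 : g₁⁻¹ * h₁ * g₁ ∈ AP M T₁ :=
      (AP M T₁).mul_mem ((AP M T₁).mul_mem ((AP M T₁).inv_mem hg₁) (fin_mono hX1 hh₁)) hg₁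
    have h6 := (hE' h₁).1 ⟨hh₁, fin_mono hT3 (hv _ _ _ h4 h5)⟩
    have e1 := ap_comm hPF hd hadj (fin_mono hX1 ha) (fin_mono hX2 hh₂)
    have e2 : a⁻¹ * (h₁ * h₂) * a = (a⁻¹ * h₁ * a) * h₂ := by
      calc a⁻¹ * (h₁ * h₂) * a = a⁻¹ * h₁ * (h₂ * a) := by group
        _ = a⁻¹ * h₁ * (a * h₂) := by rw [e1]
        _ = _ := by group
    rw [e2]
    exact Subgroup.mul_mem _ (fin_mono Finset.subset_union_left h6) (fin_mono Finset.subset_union_right hh₂)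
  · intro h1
    have hZ1 : Z ⊆ T₁ := hZ.trans hX1
    obtain ⟨z, hz, h₂, hh₂, he⟩ := ap_split hPF (Finset.disjoint_of_subset_left hZ1
      (Finset.disjoint_of_subset_right hX2 hd)) (fun s hs t ht => hadj s (hZ1 hs) t (hX2 ht)) h1
    have e1 := ap_comm hPF hd hadj ((AP M T₁).inv_mem (fin_mono hX1 ha)) (fin_mono hX2 hh₂)
    have e2 : h = (a * z * a⁻¹) * h₂ := by
      calc h = a * (a⁻¹ * h * a) * a⁻¹ := by group
        _ = a * z * (h₂ * a⁻¹) := by rw [he]; group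
        _ = a * z * (a⁻¹ * h₂) := by rw [e1]
        _ = _ := by group
    have h3 := (hE' (a * z * a⁻¹)).2 (by
      have : a⁻¹ * (a * z * a⁻¹) * a = z := by group
      rw [this]; exact hz)
    rw [e2]
    refine ⟨Subgroup.mul_mem _ (fin_mono Finset.inter_subset_left h3.1) (fin_mono Finset.inter_subset_left hh₂), ?_⟩
    rw [pr_conj hPF hd hadj hg₁ hg₂ (fin_mono hX1 h3.1) (fin_mono hX2 hh₂)]
    exact Subgroup.mul_mem _ (fin_mono hT1 h3.2)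
      (fin_mono hT2 ((AP M T₂).mul_mem ((AP M T₂).mul_mem ((AP M T₂).inv_mem hg₂) (fin_mono hX2 hh₂)) hg₂))

/-- `T = T₁ ∪ T₂` with `r ∈ T₁` (exchange `T₁` and `T \ T₁` otherwise; `adj` is symmetric), `g = g₁ g₂`, `X_i = X ∩ T_i`, `h = h₁ h₂`:
`g⁻¹ h g ∈ A_(T - r) ↔ g₁⁻¹ h₁ g₁ ∈ A_(T₁ - r)` (`VdL`); if `A_X₁ ⊓ cjA g₁ (T₁ - r) = cjA a Z` then the answer is `cjA a (Z ∪ X₂)`. -/
theorem sI1_prod (hPF : S_PF M) (hv : VdL M) {T : Finset S} (hT : ¬ Cnt M T) (ih : ∀ T' ⊂ T, S_I M T') : S_I1 M T := by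
  unfold Cnt at hT
  push Not at hT
  obtain ⟨T₁, hT₁, hcl, hne, hneT⟩ := hT
  have hd : Disjoint T₁ (T \ T₁) := Finset.disjoint_sdiff
  have hadj : ∀ s ∈ T₁, ∀ t ∈ T \ T₁, adj M s t = 0 := by
    intro s hs t ht
    by_contra hh
    exact (Finset.mem_sdiff.1 ht).2 (hcl s hs t (Finset.mem_sdiff.1 ht).1 hh)
  have hU : T₁ ∪ (T \ T₁) = T := Finset.union_sdiff_of_subset hT₁
  intro X hX r hr g hg
  by_cases hr1 : r ∈ T₁
  · have := pr_main hPF hv hd hadj (ih T₁ (Finset.ssubset_iff_subset_ne.2 ⟨hT₁, hneT⟩))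
      (X := X) (by rw [hU]; exact hX) hr1 (g := g) (by rw [hU]; exact hg)
    rwa [hU] at this
  · have hU' : (T \ T₁) ∪ T₁ = T := by rw [Finset.union_comm, hU]
    have hss : T \ T₁ ⊂ T := by
      refine Finset.ssubset_iff_subset_ne.2 ⟨Finset.sdiff_subset, fun hh => ?_⟩
      obtain ⟨s, hs⟩ := hne
      have : s ∈ T \ T₁ := by rw [hh]; exact hT₁ hs
      exact (Finset.mem_sdiff.1 this).2 hs
    have := pr_main hPF hv hd.symm (fun s hs t ht => by rw [(hPF.1 s t).1]; exact hadj t ht s hs)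
      (ih _ hss) (X := X) (by rw [hU']; exact hX) (Finset.mem_sdiff.2 ⟨hr, hr1⟩) (g := g)
      (by rw [hU']; exact hg)
    rwa [hU'] at this

end Crest.Agent.R175.P
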