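import Crest.Agent.R175.Fin.Basic

/-! R175/Fin/Thr (owner helper17): thresholds and ranks. -/

set_option autoImplicit false
set_option linter.unusedSectionVars false
set_option linter.unusedVariables false

open Finset Crest.GroupTheory

noncomputable section

namespace Crest.Agent.R175.P

variable {S : Type} [Fintype S] [DecidableEq S] {M : CoxeterMatrix S}

theorem thr_gap (Q : Mdl M) (θ : S → ℝ) : ∃ ε > 0, ∀ u, ∀ l ∈ Q.Λ, θ u < l → θ u + ε ≤ l := by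
  have h : ∀ u, ∀ᶠ ε in nhdsWithin (0 : ℝ) (Set.Ioi 0), ∀ l ∈ Q.Λ ∩ Set.Iic (θ u + 1), θ u < l → θ u + ε ≤ l := fun u =>
    (Filter.eventually_all_finite (Q.disc _)).2 fun l _ => by
      by_cases h : θ u < l
      · filter_upwards [Ioo_mem_nhdsGT (sub_pos.2 h)] with ε hε _
        linarith [hε.2]
      · exact Filter.Eventually.of_forall fun _ h' => absurd h' h
  obtain ⟨ε, h1, h2⟩ := ((Filter.eventually_all.2 h).and (Ioo_mem_nhdsGT one_pos)).exists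
  refine ⟨ε, h2.1, fun u l hl hlt => ?_⟩
  by_cases h3 : l ≤ θ u + 1
  · exact h1 u l ⟨hl, h3⟩ hlt
  · linarith [h2.2]

/-- perturbed thresholds -/
theorem thr (Q : Mdl M) (hPF : S_PF M) (U : Finset S) (x : Q.X) (n : ℤ) (θ : S → ℝ) (ρ : S → ℕ) (j : ℕ)
    (hθ : Q.Adm U x n θ)
    (hb : ∀ u ∈ U, ρ u ≤ j → Car M U θ u < Q.b U x n u ∨ ∃ u' ∈ U, adj M u u' ≠ 0 ∧ ρ u' < ρ u) :
    ∃ c, Q.Adm U x n c ∧ ∀ q, Q.D U x n c q ↔
      Q.Vx U x n q ∧ (Q.v (q.2 • x) n q.1 < θ q.1 ∨ (Q.v (q.2 • x) n q.1 = θ q.1 ∧ ρ q.1 ≤ j)) := by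
  obtain ⟨ε, hε, hg⟩ := thr_gap Q θ
  obtain ⟨z, h1, h2, h3⟩ := hPF.2.2.2.2 U (U.filter fun u => ρ u ≤ j) ρ
    (fun u => if u ∈ U then Q.b U x n u - Car M U θ u else 0) ε (filter_subset _ _) (fun u => by
      split_ifs with h
      · exact sub_nonneg.2 (hθ u h)
      · exact le_rfl) hε (fun u hu => by
      rw [mem_filter] at hu
      rcases hb u hu.1 hu.2 with h | ⟨u', h4, h5, h6⟩
      · exact Or.inl (by rw [if_pos hu.1]; exact sub_pos.2 h)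
      · exact Or.inr ⟨u', mem_filter.2 ⟨h4, by omega⟩, h5, h6⟩)
  refine ⟨fun u => θ u + z u, fun u hu => ?_, fun q => and_congr_right fun hq => ?_⟩
  · have h4 := h3 u hu
    rw [if_pos hu] at h4
    have h5 : Car M U (fun u => θ u + z u) u = Car M U θ u + Car M U z u := by
      simp only [Car, mul_add, sum_add_distrib]
      ring
    linarith
  · by_cases hj : ρ q.1 ≤ j
    · obtain ⟨h4, h5⟩ := h1 q.1 (mem_filter.2 ⟨hq.1, hj⟩)
      refine ⟨fun h => ?_, fun h => ?_⟩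
      · rcases lt_trichotomy (Q.v (q.2 • x) n q.1) (θ q.1) with h6 | h6 | h6
        · exact Or.inl h6
        · exact Or.inr ⟨h6, hj⟩
        · have := hg _ _ (Q.v_mem _ _ _) h6
          linarith
      · rcases h with h | h
        · linarith
        · linarith [h.1]
    · beta_reduce
      rw [h2 q.1 fun h => hj (mem_filter.1 h).2, add_zero]
      exact ⟨Or.inl, fun h => h.resolve_right fun h => hj h.2⟩

/-- the ratios `v / y` are well ordered -/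
theorem exists_rank (Q : Mdl M) {y : S → ℝ} (hy : ∀ s, 0 < y s) : ∃ rk : ℝ → ℕ, ∀ x n s (H : ℝ),
    Q.v x n s / y s < H → rk (Q.v x n s / y s) < rk H := by
  let Γ : Set ℝ := ⋃ s, (· / y s) '' Q.Λ
  have hf : ∀ H, (Γ ∩ Set.Iio H).Finite := fun H => by
    refine (Set.finite_iUnion fun s => (Q.disc (H * y s)).image (· / y s)).subset ?_
    rintro _ ⟨hw, hlt⟩
    obtain ⟨s, l, hl, rfl⟩ := Set.mem_iUnion.1 hw
    exact Set.mem_iUnion.2 ⟨s, l, ⟨hl, ((div_lt_iff₀ (hy s)).1 hlt).le⟩, rfl⟩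
  refine ⟨fun H => (Γ ∩ Set.Iio H).ncard, fun x n s H h => Set.ncard_lt_ncard ⟨?_, fun h' => ?_⟩ (hf H)⟩
  · exact Set.inter_subset_inter_right _ (Set.Iio_subset_Iio h.le)
  · exact lt_irrefl (Q.v x n s / y s) (h' ⟨Set.mem_iUnion.2 ⟨s, _, Q.v_mem x n s, rfl⟩, h⟩).2

/-- a vertex that minimises `(v - θ, ρ)` is fixed by the stabiliser -/
theorem fixed_min (Q : Mdl M) (hPF : S_PF M) {U : Finset S} (hC : S_C Q U) {x : Q.X} {n : ℤ} (hO : Q.Out U n x) {θ : S → ℝ}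
    {ρ : S → ℕ} (hρ : Function.Injective ρ) (hθ : Q.Adm U x n θ) {p : S × ArtinGroup M} (hp : Q.Vx U x n p)
    (hpv : Q.v (p.2 • x) n p.1 = θ p.1)
    (hmin : ∀ q, Q.Vx U x n q → θ q.1 ≤ Q.v (q.2 • x) n q.1 ∧ (Q.v (q.2 • x) n q.1 = θ q.1 → ρ p.1 ≤ ρ q.1))
    (hb : ∀ u ∈ U, ρ u ≤ ρ p.1 → Car M U θ u < Q.b U x n u ∨ ∃ u' ∈ U, adj M u u' ≠ 0 ∧ ρ u' < ρ u)
    {h : ArtinGroup M} (hh : h ∈ AP M U) (hx : h • x = x) : p.2 * h * p.2⁻¹ ∈ AP M (U.erase p.1) := by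
  obtain ⟨c, hc, hD⟩ := thr Q hPF U x n θ ρ (ρ p.1) hθ hb
  have e : (p.2 * h) • x = p.2 • x := by rw [mul_smul, hx]
  have h1 : Q.D U x n c p := (hD p).2 ⟨hp, Or.inr ⟨hpv, le_rfl⟩⟩
  have h2 : Q.D U x n c (p.1, p.2 * h) :=
    (hD _).2 ⟨⟨hp.1, mul_mem hp.2.1 hh, fun k hk => by rw [e]; exact hp.2.2 k hk⟩, Or.inr ⟨by rw [e]; exact hpv, le_rfl⟩⟩
  rcases conn_exit (hC x n c hO hc _ _ h1 h2) with h3 | ⟨q, h3, h4, -⟩
  · exact h3.2
  · obtain ⟨h5, h6⟩ := (hD q).1 h3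
    obtain ⟨h7, h8⟩ := hmin q h5
    rcases h6 with h6 | h6
    · exact absurd h6 (not_lt.2 h7)
    · exact absurd (hρ (le_antisymm h6.2 (h8 h6.1))) h4

end Crest.Agent.R175.P
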