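import Crest.Agent.R175.Fin.Main
import Crest.Agent.R175.Unf.Main
import Crest.Agent.R175.PF.Main
import Crest.Agent.R175.Dir.Main
import Crest.Agent.R175.Apt.Main
import Crest.Agent.R175.Morse.Main

/-! R175/Fin/Top (owner helper17): assembly modulo the model and `C'`. -/

set_option autoImplicit false

open Finset Crest.GroupTheory

namespace Crest.Agent.R175.P

theorem fin_top (hsl : S_SL)
    (hc : ∀ (n : ℕ) (M : CoxeterMatrix (Fin n)) (Q : Mdl M) (U : Finset (Fin n)), FinT M U → S_C' Q U)
    (S : Type*) [Finite S] (M : CoxeterMatrix S) (P Q : Subgroup (ArtinGroup M)) (hP : IsParabolic M P)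
    (hQ : IsParabolic M Q) : IsParabolic M (P ⊓ Q) := by
  refine par_univ (fun n M P Q hP hQ => ?_) S M P Q hP hQ
  obtain ⟨R⟩ := mdl M hsl
  exact par_of_sI (inter R (pf M) (call R (pf M) (fun U => cfin R) (hc n M R)) (fun U => stabF R) univ) P Q hP hQ

end Crest.Agent.R175.P
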